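import Vale.Agent.P088.H442.C.Defs
import Vale.Agent.P088.H393.CFFin
import Vale.Agent.P088.H393.CFSym
import Vale.Agent.P088.H501.A12
import Vale.Agent.P088.H776.A3
import Vale.Agent.P088.H27.GaugeB

/-!
# P088, Theorem C, row C_UQ: uniqueness of the solutions of large complex frequency
-/

open MeasureTheory Set
open scoped ContDiff Matrix

noncomputable section

namespace Vale.Agent.P088.LR.CC.H271

open Vale.Agent.P088.LR Vale.Agent.P088.LR.CF Vale.Agent.P088.LR.CC
open Vale.Agent.P088.LR.H393 Vale.Agent.P088.LR.CF.H393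

variable {n : ℕ}

/-- A series that vanishes on the cube has zero coefficients. -/
theorem es_zero {θ : V n} {d : Ix n → ℂ} (hd : RD d) (h : ∀ x ∈ cube n, Es θ d x = 0)
    (k : Ix n) : d k = 0 := by
  have h0 : ∀ x ∈ cube n, Es 0 d x = (fun _ : V n => (0 : ℂ)) x := by
    intro x hx
    have h1 : Es θ d x = Es 0 d x * ex θ x := by
      unfold Es
      rw [← tsum_mul_right]
      refine tsum_congr fun k => ?_
      have h2 : ex (fr θ k) x = ex (fr 0 k) x * ex θ x := by
        rw [← H501.ex_add]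
        congr 1
        funext j
        simp [fr]
      rw [h2]
      ring
    have h3 : ex θ x ≠ 0 := Complex.exp_ne_zero _
    have h4 := h x hx
    rw [h1] at h4
    exact (mul_eq_zero.mp h4).resolve_right h3
  have h5 := H27.cf_of_rep (f := fun _ : V n => (0 : ℂ)) (fun _ _ => rfl) hd h0 k
  rw [← h5]
  unfold cf ft
  simp

theorem pd_sub' {f g : V n → ℂ} (hf : ContDiff ℝ ∞ f) (hg : ContDiff ℝ ∞ g) (i : Fin n)
    (x : V n) : pd i (fun y => f y - g y) x = pd i f x - pd i g x := by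
  unfold pd
  rw [fderiv_fun_sub (hf.differentiable (by simp)).differentiableAt
    (hg.differentiable (by simp)).differentiableAt]
  rfl

theorem smooth_pd {f : V n → ℂ} (hf : ContDiff ℝ ∞ f) (j : Fin n) : ContDiff ℝ ∞ (pd j f) :=
  (hf.fderiv_right (by simp)).clm_apply contDiff_const

theorem flux_smooth {t : MF n} (ht : SmM t) {u : V n → ℂ} (hu : ContDiff ℝ ∞ u) (i : Fin n) :
    ContDiff ℝ ∞ fun y => ∑ j, (t y i j : ℂ) * pd j u y :=
  ContDiff.sum fun j _ => (Complex.ofRealCLM.contDiff.comp (ht i j)).mul (smooth_pd hu j)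

theorem dv_sub {t : MF n} (ht : SmM t) {u v : V n → ℂ} (hu : ContDiff ℝ ∞ u)
    (hv : ContDiff ℝ ∞ v) (x : V n) : dv t (fun y => u y - v y) x = dv t u x - dv t v x := by
  unfold dv
  rw [← Finset.sum_sub_distrib]
  refine Finset.sum_congr rfl fun i _ => ?_
  rw [← pd_sub' (flux_smooth ht hu i) (flux_smooth ht hv i)]
  congr 1
  funext y
  rw [← Finset.sum_sub_distrib]
  refine Finset.sum_congr rfl fun j _ => ?_
  rw [pd_sub' hu hv]
  ring

/-- The coefficient equation of `w = e^{z·x} Es θ d`. -/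
theorem coeff_eq (hA1 : RowA1) (hA2 : RowA2) (z : Fin n → ℂ) (θ : V n)
    (L : Ix n → Fin n → ℂ)
    (hL : ∀ k j, L k j = 2 * Real.pi * Complex.I * ((fr θ k j : ℝ) : ℂ) + z j)
    (t : MF n) (q : V n → ℝ) (h : Fin n → Fin n → Ix n → ℂ) (r : Ix n → ℂ)
    (hh : ∀ i j, RD (h i j)) (hr : RD r)
    (e0 : ∀ i j, ∀ x ∈ cube n, ent t i j x = Es 0 (h i j) x)
    (f0 : ∀ x ∈ cube n, cx q x = Es 0 r x)
    {d : Ix n → ℂ} (hd : RD d)
    (heq : ∀ x ∈ cube n, dv t (fun x => EE z x * (0 + Es θ d x)) x =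
      (q x : ℂ) * (EE z x * (0 + Es θ d x))) :
    (∀ i, RD fun k => L k i * d k) ∧ ∀ k, (∑ j, L k j ^ 2) * d k +
      ∑ i, L k i * ∑ j, cv (h i j) (fun k => L k j * d k) k = cv r d k := by
  have hy : ∀ i, RD fun k => L k i * d k := by
    intro i
    have := rd_add (rd_fr hd θ i) (rd_const_mul hd (z i))
    refine (iff_of_eq (congrArg RD ?_)).mp this
    funext k
    rw [hL]
    ring
  refine ⟨hy, ?_⟩
  set y : Fin n → Ix n → ℂ := fun i k => L k i * d k with hydef
  have hpd : ∀ j x, pd j (fun x => EE z x * (0 + Es θ d x)) x = EE z x * Es θ (y j) x := by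
    intro j x
    have h := pd_EE_mul hA1 z θ 0 hd j x
    have h2 : (fun k => (2 * Real.pi * Complex.I * ((fr θ k j : ℝ) : ℂ) + z j) * d k)
        = y j := by
      funext k
      change _ = L k j * d k
      rw [hL]
    rw [h2, mul_zero, zero_add] at h
    exact h
  have hcv : ∀ i m, RD (cv (h i m) (y m)) := fun i m => (hA2 0 0 _ _ (hh i m) (hy m)).1
  set F : Fin n → Ix n → ℂ := fun i k => ∑ m, cv (h i m) (y m) k with hF
  have hFRD : ∀ i, RD (F i) := fun i => rd_sum (fun m => hcv i m)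
  have hΦ : ∀ i, RD fun k => y i k + F i k := fun i => rd_add (hy i) (hFRD i)
  have fluxF : ∀ i, ∀ x ∈ cube n, Es θ (F i) x = ∑ m, ent t i m x * Es θ (y m) x := by
    intro i x hx
    have h2 : Es θ (F i) x = ∑ m, Es θ (cv (h i m) (y m)) x := Es_sum (fun m => hcv i m) θ x
    rw [h2]
    refine Finset.sum_congr rfl fun m _ => ?_
    have h3 := (hA2 0 θ _ _ (hh i m) (hy m)).2.2.1 x
    rw [zero_add, ← e0 i m x hx] at h3
    exact h3.symm
  have hG : RD (cv r d) := (hA2 0 0 _ _ hr hd).1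
  have h8 : ∀ i, RD fun k => L k i * (y i k + F i k) := by
    intro i
    have := rd_add (rd_fr (hΦ i) θ i) (rd_const_mul (hΦ i) (z i))
    refine (iff_of_eq (congrArg RD ?_)).mp this
    funext k
    rw [hL]
    ring
  have key : ∀ x ∈ cube n,
      Es θ (fun k => ∑ i, L k i * (y i k + F i k) + (-1) * cv r d k) x = 0 := by
    intro x hx
    have h5 : ∀ i, pd i (fun w => ∑ j, (t w i j : ℂ) *
        pd j (fun x => EE z x * (0 + Es θ d x)) w) x =
        EE z x * Es θ (fun k => L k i * (y i k + F i k)) x := by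
      intro i
      have h6 : (fun w => ∑ j, (t w i j : ℂ) *
          pd j (fun x => EE z x * (0 + Es θ d x)) w) =ᶠ[nhds x]
          fun x => EE z x * (0 + Es θ (fun k => y i k + F i k) x) := by
        filter_upwards [isOpen_cube.mem_nhds hx] with w hw
        rw [Es_add (hy i) (hFRD i), fluxF i w hw, zero_add, mul_add, Finset.mul_sum]
        have : ∀ j, (t w i j : ℂ) * pd j (fun x => EE z x * (0 + Es θ d x)) w =
            (if i = j then EE z w * Es θ (y j) w else 0) +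
              EE z w * (ent t i j w * Es θ (y j) w) := fun j => by
          rw [hpd, one_add_ent]
          split_ifs <;> ring
        rw [Finset.sum_congr rfl fun j _ => this j, Finset.sum_add_distrib]
        congr 1
        rw [Finset.sum_ite_eq Finset.univ i, if_pos (Finset.mem_univ i)]
      have h7 := pd_EE_mul hA1 z θ 0 (hΦ i) i x
      rw [pd_congr i h6, h7, mul_zero, zero_add]
      have h9 : (fun k => (2 * Real.pi * Complex.I * ((fr θ k i : ℝ) : ℂ) + z i) *
          (y i k + F i k)) = fun k => L k i * (y i k + F i k) := by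
        funext k
        rw [hL]
      rw [h9]
    have h10 := heq x hx
    unfold dv at h10
    rw [Finset.sum_congr rfl fun i _ => h5 i, ← Finset.mul_sum, ← Es_sum h8, zero_add] at h10
    have h11 := (hA2 0 θ _ _ hr hd).2.2.1 x
    rw [zero_add, ← f0 x hx] at h11
    have h12 : EE z x ≠ 0 := Complex.exp_ne_zero _
    have h13 : EE z x * (Es θ (fun k => ∑ i, L k i * (y i k + F i k)) x - Es θ (cv r d) x) = 0 := by
      rw [mul_sub, h10, ← h11]
      unfold cx
      ring
    have h14 := (mul_eq_zero.mp h13).resolve_left h12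
    rw [Es_add (rd_sum h8) (rd_const_mul hG (-1)), Es_const_mul]
    rw [← h14]
    ring
  intro k
  have h15 := es_zero (rd_add (rd_sum h8) (rd_const_mul hG (-1))) key k
  have h16 : (∑ j, L k j ^ 2) * d k + ∑ i, L k i * F i k = ∑ i, L k i * (y i k + F i k) := by
    rw [Finset.sum_mul, ← Finset.sum_add_distrib]
    refine Finset.sum_congr rfl fun i _ => ?_
    rw [hydef]
    ring
  change (∑ j, L k j ^ 2) * d k + ∑ i, L k i * F i k = cv r d k
  rw [h16]
  linear_combination h15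

/-- The contraction. -/
theorem contr (hA2 : RowA2) {X : ℝ} {L : Ix n → Fin n → ℂ} {p : Ix n → ℂ} (S : Sy X L p)
    (hpX : ∀ k, X ≤ ‖p k‖) (h : Fin n → Fin n → Ix n → ℂ) (r : Ix n → ℂ)
    (hh : ∀ i j, RD (h i j)) (hr : RD r) {η : ℝ} (hη : ∀ i j, nm 0 (h i j) ≤ η)
    (hQ : nm 0 r ≤ X / 2) (hs : 24 * n ^ 2 * X * η ≤ 1) {d : Ix n → ℂ} (hd : RD d)
    (hy : ∀ i, RD fun k => L k i * d k)
    (heq : ∀ k, p k * d k + ∑ i, L k i * ∑ j, cv (h i j) (fun k => L k j * d k) k = cv r d k)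
    (k : Ix n) : d k = 0 := by
  have hX := S.hX
  have hX0 : 0 < X := by linarith
  set y : Fin n → Ix n → ℂ := fun i k => L k i * d k with hydef
  have hcv : ∀ i m, RD (cv (h i m) (y m)) := fun i m => (hA2 0 0 _ _ (hh i m) (hy m)).1
  have hG : RD (cv r d) := (hA2 0 0 _ _ hr hd).1
  set Y : ℝ := ∑ j, nm 0 (y j) with hY
  have hY0 : 0 ≤ Y := Finset.sum_nonneg fun j _ => nmm_nonneg 0 _
  have hD0 : 0 ≤ nm 0 d := nmm_nonneg 0 _
  -- the total size of the second order part
  set T : Ix n → ℝ := fun k => ∑ i, ∑ j, ‖cv (h i j) (y j) k‖ with hT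
  have hTs : Summable T := summable_sum fun i _ => summable_sum fun j _ => sn (hcv i j)
  have hTb : ∑' k, T k ≤ n * η * Y := by
    have h1 : ∑' k, T k = ∑ i, ∑ j, nm 0 (cv (h i j) (y j)) := by
      rw [hT, Summable.tsum_finsetSum (fun i _ => summable_sum fun j _ => sn (hcv i j))]
      refine Finset.sum_congr rfl fun i _ => ?_
      rw [Summable.tsum_finsetSum (fun j _ => sn (hcv i j))]
      exact Finset.sum_congr rfl fun j _ => (nm_zero_eq _).symm
    rw [h1]
    have h2 : ∀ i, ∑ j, nm 0 (cv (h i j) (y j)) ≤ η * Y := by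
      intro i
      rw [hY, Finset.mul_sum]
      refine Finset.sum_le_sum fun j _ => ?_
      refine ((hA2 0 0 _ _ (hh i j) (hy j)).2.2.2 0).trans ?_
      exact mul_le_mul_of_nonneg_right (hη i j) (nmm_nonneg 0 _)
    calc ∑ i, ∑ j, nm 0 (cv (h i j) (y j)) ≤ ∑ _i : Fin n, η * Y :=
          Finset.sum_le_sum fun i _ => h2 i
      _ = n * η * Y := by
          rw [Finset.sum_const, Finset.card_univ, Fintype.card_fin, nsmul_eq_mul]
          ring
  have hGb : nm 0 (cv r d) ≤ X / 2 * nm 0 d :=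
    ((hA2 0 0 _ _ hr hd).2.2.2 0).trans (mul_le_mul_of_nonneg_right hQ hD0)
  -- pointwise
  have hdk : ∀ k, d k = (cv r d k - ∑ i, L k i * ∑ j, cv (h i j) (y j) k) / p k := by
    intro k
    rw [eq_div_iff (S.h0 k)]
    linear_combination heq k
  have hsum : ∀ (k : Ix n) (i : Fin n), ‖∑ j, cv (h i j) (y j) k‖ ≤
      ∑ j, ‖cv (h i j) (y j) k‖ := fun k i => norm_sum_le _ _
  have b1 : ∀ k, ‖d k‖ ≤ 1 / X * ‖cv r d k‖ + 3 * T k := by
    intro k
    have hp0 : 0 < ‖p k‖ := by linarith [hpX k]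
    rw [hdk k, sub_div, Finset.sum_div]
    refine (norm_sub_le _ _).trans (add_le_add ?_ ?_)
    · rw [norm_div, one_div, inv_mul_eq_div]
      exact div_le_div_of_nonneg_left (norm_nonneg _) hX0 (hpX k)
    · rw [hT, Finset.mul_sum]
      refine (norm_sum_le _ _).trans (Finset.sum_le_sum fun i _ => ?_)
      rw [mul_div_right_comm, norm_mul]
      exact mul_le_mul (S.h2 k i) (hsum k i) (norm_nonneg _) (by norm_num)
  have b2 : ∀ (m : Fin n) (k : Ix n), ‖y m k‖ ≤ 3 * ‖cv r d k‖ + 3 * X * T k := by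
    intro m k
    have h1 : y m k = L k m / p k * cv r d k -
        ∑ i, (L k m / p k * L k i) * ∑ j, cv (h i j) (y j) k := by
      have h2 : y m k = L k m * d k := rfl
      rw [h2, hdk k]
      have h3 : ∑ i, (L k m / p k * L k i) * ∑ j, cv (h i j) (y j) k =
          L k m / p k * ∑ i, L k i * ∑ j, cv (h i j) (y j) k := by
        rw [Finset.mul_sum]
        exact Finset.sum_congr rfl fun i _ => by ring
      rw [h3]
      ring
    rw [h1]
    refine (norm_sub_le _ _).trans (add_le_add ?_ ?_)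
    · rw [norm_mul]
      exact mul_le_mul_of_nonneg_right (S.h2 k m) (norm_nonneg _)
    · rw [hT, Finset.mul_sum]
      refine (norm_sum_le _ _).trans (Finset.sum_le_sum fun i _ => ?_)
      rw [norm_mul]
      exact mul_le_mul (S.h3 k m i) (hsum k i) (norm_nonneg _) (by positivity)
  -- summed
  have c1 : nm 0 d ≤ 1 / X * nm 0 (cv r d) + 3 * ∑' k, T k := by
    rw [nm_zero_eq, nm_zero_eq, ← tsum_mul_left, ← tsum_mul_left,
      ← ((sn hG).mul_left _).tsum_add (hTs.mul_left _)]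
    exact (sn hd).tsum_le_tsum b1 (((sn hG).mul_left _).add (hTs.mul_left _))
  have c2 : ∀ m, nm 0 (y m) ≤ 3 * nm 0 (cv r d) + 3 * X * ∑' k, T k := by
    intro m
    rw [nm_zero_eq, nm_zero_eq, ← tsum_mul_left, ← tsum_mul_left,
      ← ((sn hG).mul_left _).tsum_add (hTs.mul_left _)]
    exact (sn (hy m)).tsum_le_tsum (b2 m) (((sn hG).mul_left _).add (hTs.mul_left _))
  have hn0 : (0 : ℝ) ≤ n := Nat.cast_nonneg n
  have c3 : Y ≤ n * (3 * nm 0 (cv r d) + 3 * X * ∑' k, T k) := by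
    calc Y ≤ ∑ _m : Fin n, (3 * nm 0 (cv r d) + 3 * X * ∑' k, T k) :=
          Finset.sum_le_sum fun m _ => c2 m
      _ = _ := by rw [Finset.sum_const, Finset.card_univ, Fintype.card_fin, nsmul_eq_mul]
  have d1 : nm 0 d ≤ 6 * (n * η * Y) := by
    have h1 : 1 / X * nm 0 (cv r d) ≤ 1 / X * (X / 2 * nm 0 d) :=
      mul_le_mul_of_nonneg_left hGb (by positivity)
    have h2 : 1 / X * (X / 2 * nm 0 d) = nm 0 d / 2 := by
      field_simp
    linarith
  have d2 : Y ≤ 12 * n ^ 2 * X * η * Y := by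
    have h1 : 3 * nm 0 (cv r d) ≤ 3 * (X / 2 * (6 * (n * η * Y))) := by
      have := mul_le_mul_of_nonneg_left d1 (by positivity : 0 ≤ X / 2)
      linarith
    have h2 : 3 * X * ∑' k, T k ≤ 3 * X * (n * η * Y) :=
      mul_le_mul_of_nonneg_left hTb (by positivity)
    calc Y ≤ n * (3 * nm 0 (cv r d) + 3 * X * ∑' k, T k) := c3
      _ ≤ n * (3 * (X / 2 * (6 * (n * η * Y))) + 3 * X * (n * η * Y)) :=
          mul_le_mul_of_nonneg_left (add_le_add h1 h2) hn0
      _ = 12 * n ^ 2 * X * η * Y := by ring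
  have hY1 : Y = 0 := by nlinarith
  have hD1 : nm 0 d = 0 := by
    rw [hY1] at d1
    linarith
  rw [nm_zero_eq] at hD1
  have h1 := (hasSum_zero_iff_of_nonneg (fun k => norm_nonneg (d k))).mp
    (hD1 ▸ (sn hd).hasSum)
  exact norm_eq_zero.mp (congrFun h1 k)

theorem cl_add {k : ℕ} {a b : ℝ} {f g : V n → ℂ} (hf : ContDiff ℝ ∞ f) (hg : ContDiff ℝ ∞ g)
    (h1 : Cl k a f) (h2 : Cl k b g) : Cl k (a + b) (fun x => f x + g x) := by
  intro l hl x
  have h3 : iteratedFDeriv ℝ l (fun x => f x + g x) x =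
      iteratedFDeriv ℝ l f x + iteratedFDeriv ℝ l g x := by
    have := iteratedFDeriv_add_apply (𝕜 := ℝ) (i := l) (x := x) (f := f) (g := g)
      ((hf.of_le (by exact_mod_cast le_top)).contDiffAt)
      ((hg.of_le (by exact_mod_cast le_top)).contDiffAt)
    exact this
  rw [h3]
  exact (norm_add_le _ _).trans (add_le_add (h1 l hl x) (h2 l hl x))

/-- (C_UQ), with the standard rows as hypotheses. -/
theorem uqc (hS : RowSYM) (hA1 : RowA1) (hA2 : RowA2) (hA3 : RowA3) : RowUQC := by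
  intro n B
  obtain ⟨C3, hC3, h3⟩ := hA3 n 0
  refine ⟨24 * (n : ℝ) ^ 2 * C3 + 2 * C3 * (|B| + 1) + 1, ?_, ?_⟩
  · have : 0 ≤ 24 * (n : ℝ) ^ 2 * C3 + 2 * C3 * (|B| + 1) := by positivity
    linarith
  set C : ℝ := 24 * (n : ℝ) ^ 2 * C3 + 2 * C3 * (|B| + 1) + 1 with hC
  intro i₀ e ξ he h0 hCX t q₀ q ht hq₀ hq ot oq₀ oq hB a ha hSz hCa c c' u u' U U'
  have hu1 : 0 ≤ 24 * (n : ℝ) ^ 2 * C3 := by positivity
  have hu2 : 0 ≤ 2 * C3 * (|B| + 1) := by positivity
  have hX : 1 ≤ nr ξ := by linarith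
  have hX0 : 0 ≤ nr ξ := by linarith
  have hC1 : 1 ≤ C := by linarith
  have ha1 : a ≤ 1 := by
    have h1 : 1 ≤ C * nr ξ := by nlinarith
    nlinarith
  have S := sy_of hS he h0 hX
  have hpX : ∀ k, nr ξ ≤ ‖∑ j, lmz i₀ (zs e i₀ ξ) k j ^ 2‖ := fun k =>
    ((hS i₀ e ξ he h0 hX).2.2 k).1
  -- the coefficients of `t - 1` and `q`
  have hent : ∀ i j, ContDiff ℝ ∞ (ent t i j) := fun i j => H27.ent_smooth ht i j
  have hcq : ContDiff ℝ ∞ (cx q) := Complex.ofRealCLM.contDiff.comp hq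
  have hcq₀ : ContDiff ℝ ∞ (cx q₀) := Complex.ofRealCLM.contDiff.comp hq₀
  have oent : ∀ i j, ∀ x ∉ core n, ent t i j x = 0 := fun i j x hx => H27.ent_off (ot x hx) i j
  have ocq : ∀ x ∉ core n, cx q x = 0 := fun x hx => by simp [cx, oq x hx]
  have h00 : ∀ j : Fin n, |(0 : V n) j| ≤ 1 := by simp
  have k1 := fun i j => h3 (ent t i j) (hent i j) (tsup (oent i j)) 0 h00
  have k2 := h3 (cx q) hcq (tsup ocq) 0 h00
  have hBq : Cl (0 + n + 1) (|B| + 1) (cx q) := by
    rw [Nat.zero_add]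
    have h4 := cl_add (hcq.sub hcq₀) hcq₀ hSz.2 hB
    have h5 : (fun x => cx q x - cx q₀ x + cx q₀ x) = cx q := by
      funext x
      ring
    rw [h5] at h4
    intro l hl x
    refine (h4 l hl x).trans ?_
    have := le_abs_self B
    linarith
  have hQ : nm 0 (cf 0 (cx q)) ≤ nr ξ / 2 := by
    have := k2.2.2 _ hBq
    linarith
  have hη : ∀ i j, nm 0 (cf 0 (ent t i j)) ≤ C3 * a := fun i j => (k1 i j).2.2 a (by
    rw [Nat.zero_add]
    exact hSz.1 i j)
  have hs : 24 * (n : ℝ) ^ 2 * nr ξ * (C3 * a) ≤ 1 := by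
    have h4 : 0 ≤ nr ξ * a := by positivity
    calc 24 * (n : ℝ) ^ 2 * nr ξ * (C3 * a) = 24 * (n : ℝ) ^ 2 * C3 * (nr ξ * a) := by ring
      _ ≤ C * (nr ξ * a) := mul_le_mul_of_nonneg_right (by linarith) h4
      _ = C * nr ξ * a := by ring
      _ ≤ 1 := hCa
  -- the difference
  have hd : RD fun k => c k - c' k := by
    have := rd_add U.rc (rd_const_mul U'.rc (-1))
    refine (iff_of_eq (congrArg RD ?_)).mp this
    funext k
    ring
  have hu : u = fun x => EE (zs e i₀ ξ) x * (1 + Es (th0 i₀) c x) := by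
    funext x
    rw [U.val x]
    unfold EE
    rw [LL_apply]
  have hu' : u' = fun x => EE (zs e i₀ ξ) x * (1 + Es (th0 i₀) c' x) := by
    funext x
    rw [U'.val x]
    unfold EE
    rw [LL_apply]
  have su : ContDiff ℝ ∞ u := by
    rw [hu]
    exact (EE_contDiff _).mul (contDiff_const.add (hA1 _ c U.rc).1)
  have su' : ContDiff ℝ ∞ u' := by
    rw [hu']
    exact (EE_contDiff _).mul (contDiff_const.add (hA1 _ c' U'.rc).1)
  have hw : (fun x => EE (zs e i₀ ξ) x * (0 + Es (th0 i₀) (fun k => c k - c' k) x)) =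
      fun x => u x - u' x := by
    funext x
    have h4 : (fun k => c k - c' k) = fun k => c k + (-1) * c' k := by
      funext k
      ring
    rw [hu, hu', h4, Es_add U.rc (rd_const_mul U'.rc (-1)), Es_const_mul]
    ring
  have heq : ∀ x ∈ cube n, dv t (fun x => EE (zs e i₀ ξ) x *
      (0 + Es (th0 i₀) (fun k => c k - c' k) x)) x =
      (q x : ℂ) * (EE (zs e i₀ ξ) x * (0 + Es (th0 i₀) (fun k => c k - c' k) x)) := by
    intro x hx
    have h4 : EE (zs e i₀ ξ) x * (0 + Es (th0 i₀) (fun k => c k - c' k) x) = u x - u' x :=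
      congrFun hw x
    rw [h4, hw, dv_sub ht su su', U.eq x hx, U'.eq x hx]
    ring
  obtain ⟨hy, hce⟩ := coeff_eq hA1 hA2 (zs e i₀ ξ) (th0 i₀) (lmz i₀ (zs e i₀ ξ))
    (fun k j => rfl) t q (fun i j => cf 0 (ent t i j)) (cf 0 (cx q)) (fun i j => (k1 i j).1)
    k2.1 (fun i j => (k1 i j).2.1) k2.2.1 hd heq
  funext k
  have := contr hA2 S hpX (fun i j => cf 0 (ent t i j)) (cf 0 (cx q)) (fun i j => (k1 i j).1)
    k2.1 hη hQ hs hd hy hce k
  exact sub_eq_zero.mp this

/-- **(C_UQ).** -/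
theorem uq : RowUQC := uqc sym H501.rowA1 H501.rowA2 H776.rowA3

end Vale.Agent.P088.LR.CC.H271
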